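import Vale.Agent.P183.R2.H668.KW.Spec

set_option autoImplicit false

namespace Vale.Agent.P183.R2.H638.KW

open Finset
open Vale.Agent.P183.R2.H668.KW

theorem choose_mul_le (R j : ℕ) (a : ℝ) (ha : 0 < a) :
    (R.choose j : ℝ) * a ^ j ≤ (1 + a) ^ R := by
  rcases le_or_gt j R with h | h
  · have h1 := add_pow a 1 R
    have h2 : a ^ j * 1 ^ (R - j) * (R.choose j : ℝ) ≤
        ∑ m ∈ range (R + 1), a ^ m * 1 ^ (R - m) * (R.choose m : ℝ) :=
      Finset.single_le_sum (f := fun m => a ^ m * 1 ^ (R - m) * (R.choose m : ℝ))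
        (fun i _ => by positivity) (mem_range.2 (by omega))
    rw [← h1] at h2
    rw [one_pow, mul_one] at h2
    rw [add_comm 1 a, mul_comm]
    exact h2
  · rw [Nat.choose_eq_zero_of_lt h]
    simp only [Nat.cast_zero, zero_mul]
    positivity

/-- basic facts: `u = t^(1/8)`, `√t = u^4`, `log t ≤ 8 u`. -/
theorem basic (t : ℕ) (ht : 1 ≤ t) : ∃ u : ℝ, 1 ≤ u ∧ (t : ℝ) ^ (1 / 2 : ℝ) = u ^ 4 ∧
    (t : ℝ) = u ^ 8 ∧ Real.log t ≤ 8 * u := by
  have h1 : (1 : ℝ) ≤ t := by exact_mod_cast ht
  have h0 : (0 : ℝ) ≤ t := by positivity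
  refine ⟨(t : ℝ) ^ (1 / 8 : ℝ), Real.one_le_rpow h1 (by norm_num), ?_, ?_, ?_⟩
  · rw [← Real.rpow_natCast, ← Real.rpow_mul h0]
    norm_num
  · rw [← Real.rpow_natCast, ← Real.rpow_mul h0]
    norm_num
  · have := Real.log_le_rpow_div h0 (show (0 : ℝ) < 1 / 8 by norm_num)
    linarith [this]

theorem sum_bound (t δ : ℕ) (hδ : 1 ≤ δ) (ht : 1 ≤ t) (hδ2 : δ ^ 2 ≤ 2 * t) (hδt : δ ≤ t)
    (hbig : (t : ℝ) ^ (1 / 2 : ℝ) < δ * Real.log t) :
    ∃ q : ℕ, (1 - (δ : ℝ) ^ 2 / (2 * t)) ^ q * t ≤ ((2 * t / δ : ℕ) : ℝ) ∧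
      ∀ d ≤ δ + 1, ((∑ s ∈ range (q + 1), t.choose s * (2 * t / δ).choose (d - s) : ℕ) : ℝ) ≤
        Real.exp (10000 * (t : ℝ) ^ (1 / 2 : ℝ)) := by
  obtain ⟨u, hu1, hs, htu, hl⟩ := basic t ht
  have htpos : (0 : ℝ) < t := by exact_mod_cast ht
  have ht1 : (1 : ℝ) ≤ t := by exact_mod_cast ht
  have hδpos : (0 : ℝ) < δ := by exact_mod_cast hδ
  have hδ1 : (1 : ℝ) ≤ δ := by exact_mod_cast hδ
  have hδ2' : (δ : ℝ) ^ 2 ≤ 2 * t := by exact_mod_cast hδ2
  have hδt' : (δ : ℝ) ≤ t := by exact_mod_cast hδt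
  set l : ℝ := Real.log t with hldef
  have hl0 : 0 ≤ l := Real.log_nonneg ht1
  set β : ℝ := (δ : ℝ) ^ 2 / (2 * t) with hβdef
  have hβ0 : 0 < β := by positivity
  have hβ1 : β ≤ 1 := by
    rw [hβdef, div_le_one (by positivity)]
    exact hδ2'
  rw [hs] at hbig ⊢
  -- t < δ² l²
  have htl : (t : ℝ) < (δ : ℝ) ^ 2 * l ^ 2 := by
    have h1 : (u ^ 4) ^ 2 < (δ * l) ^ 2 := by
      apply pow_lt_pow_left₀ hbig (by positivity) (by norm_num)
    calc (t : ℝ) = (u ^ 4) ^ 2 := by rw [htu]; ring
      _ < (δ * l) ^ 2 := h1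
      _ = _ := by ring
  have hβinv : 1 / β ≤ 2 * l ^ 2 := by
    rw [hβdef, one_div_div, div_le_iff₀ (by positivity)]
    nlinarith
  have hlogδ : Real.log δ ≤ l := Real.log_le_log hδpos hδt'
  have hlogδ0 : 0 ≤ Real.log δ := Real.log_nonneg hδ1
  set q : ℕ := ⌈Real.log δ / β⌉₊ with hq
  have hq1 : Real.log δ / β ≤ q := Nat.le_ceil _
  have hq2 : (q : ℝ) ≤ 2 * l ^ 3 + 1 := by
    have h1 : (q : ℝ) < Real.log δ / β + 1 := Nat.ceil_lt_add_one (by positivity)
    have h2 : Real.log δ / β ≤ l * (2 * l ^ 2) := by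
      rw [div_eq_mul_one_div]
      exact mul_le_mul hlogδ hβinv (by positivity) hl0
    nlinarith
  refine ⟨q, ?_, ?_⟩
  · -- (1-β)^q t ≤ R
    have h1 : (1 - β) ^ q ≤ 1 / δ := by
      have h2 : (1 - β) ^ q ≤ (Real.exp (-β)) ^ q := by
        apply pow_le_pow_left₀ (by linarith)
        have := Real.add_one_le_exp (-β)
        linarith
      have h3 : (Real.exp (-β)) ^ q = Real.exp (-(β * q)) := by
        rw [← Real.exp_nat_mul]; congr 1; ring
      have h4 : Real.log δ ≤ β * q := by
        rw [div_le_iff₀ hβ0] at hq1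
        linarith
      have h5 : Real.exp (-(β * q)) ≤ Real.exp (-(Real.log δ)) := by
        apply Real.exp_le_exp.2; linarith
      rw [Real.exp_neg (Real.log δ), Real.exp_log hδpos] at h5
      rw [one_div]
      linarith [h2, h3.le, h5]
    have h6 : (t : ℝ) / δ ≤ ((2 * t / δ : ℕ) : ℝ) := by
      have h7 : 2 * t < δ * (2 * t / δ + 1) := by
        have := Nat.lt_mul_div_succ (2 * t) (show 0 < δ by omega)
        simpa using this
      have h8 : (2 * t : ℝ) < δ * (((2 * t / δ : ℕ) : ℝ) + 1) := by exact_mod_cast h7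
      rw [div_le_iff₀ hδpos]
      nlinarith
    calc (1 - β) ^ q * t ≤ 1 / δ * t := by
          apply mul_le_mul_of_nonneg_right h1 (by positivity)
      _ = t / δ := by ring
      _ ≤ _ := h6
  · intro d hd
    set R : ℕ := 2 * t / δ with hR
    have hRle : (R : ℝ) * δ ≤ 2 * t := by
      have : R * δ ≤ 2 * t := Nat.div_mul_le_self _ _
      exact_mod_cast this
    have hβR : β * R ≤ δ := by
      rw [hβdef, div_mul_eq_mul_div, div_le_iff₀ (by positivity)]
      nlinarith
    have hexp1 : (1 + β) ^ R ≤ Real.exp δ := by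
      calc (1 + β) ^ R ≤ (Real.exp β) ^ R := by
            apply pow_le_pow_left₀ (by positivity)
            have := Real.add_one_le_exp β
            linarith
        _ = Real.exp (β * R) := by rw [← Real.exp_nat_mul]; congr 1; ring
        _ ≤ _ := Real.exp_le_exp.2 hβR
    -- β^{-(δ+1)} ≤ exp(6 u^4)
    have hlogβ : Real.log (1 / β) ≤ 3 * u ^ 4 / δ := by
      have h1 : 1 / β = (Real.sqrt 2 * u ^ 4 / δ) ^ 2 := by
        rw [hβdef, one_div_div, div_pow, mul_pow, Real.sq_sqrt (by norm_num), htu]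
        ring
      have h2 : (0 : ℝ) < Real.sqrt 2 * u ^ 4 / δ := by positivity
      rw [h1, Real.log_pow]
      have h3 := Real.log_le_sub_one_of_pos h2
      have h4 : Real.sqrt 2 ≤ 3 / 2 := by
        rw [Real.sqrt_le_left (by norm_num)]; norm_num
      have h5 : Real.sqrt 2 * u ^ 4 / δ ≤ 3 / 2 * u ^ 4 / δ := by
        apply div_le_div_of_nonneg_right _ hδpos.le
        apply mul_le_mul_of_nonneg_right h4 (by positivity)
      have h6 : 3 / 2 * u ^ 4 / δ * 2 = 3 * u ^ 4 / δ := by ring
      push_cast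
      linarith
    have hβpow : (1 / β) ^ (δ + 1) ≤ Real.exp (6 * u ^ 4) := by
      have h1 : (1 / β) ^ (δ + 1) = Real.exp ((δ + 1 : ℕ) * Real.log (1 / β)) := by
        rw [Real.exp_nat_mul, Real.exp_log (by positivity)]
      rw [h1]
      apply Real.exp_le_exp.2
      push_cast
      have h2 : ((δ : ℝ) + 1) * Real.log (1 / β) ≤ ((δ : ℝ) + 1) * (3 * u ^ 4 / δ) :=
        mul_le_mul_of_nonneg_left hlogβ (by positivity)
      have h3 : ((δ : ℝ) + 1) * (3 * u ^ 4 / δ) ≤ 6 * u ^ 4 := by
        rw [← mul_div_assoc, div_le_iff₀ hδpos]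
        have : 0 ≤ u ^ 4 := by positivity
        nlinarith
      linarith
    -- termwise
    have hterm : ∀ s ∈ range (q + 1), ((t.choose s * R.choose (d - s) : ℕ) : ℝ) ≤
        Real.exp (q * l) * (Real.exp δ * Real.exp (6 * u ^ 4)) := by
      intro s hs
      have hsq : s ≤ q := by have := mem_range.1 hs; omega
      push_cast
      apply mul_le_mul
      · calc (t.choose s : ℝ) ≤ (t : ℝ) ^ s := by
              exact_mod_cast Nat.choose_le_pow t s
          _ ≤ (t : ℝ) ^ q := pow_le_pow_right₀ ht1 hsq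
          _ = Real.exp (q * l) := by
              rw [Real.exp_nat_mul, hldef, Real.exp_log htpos]
      · have h1 := choose_mul_le R (d - s) β hβ0
        have h2 : (R.choose (d - s) : ℝ) = (R.choose (d - s) : ℝ) * β ^ (d - s) *
            (1 / β) ^ (d - s) := by
          rw [mul_assoc, ← mul_pow, mul_one_div_cancel hβ0.ne', one_pow, mul_one]
        rw [h2]
        apply mul_le_mul (h1.trans hexp1) _ (by positivity) (by positivity)
        refine le_trans ?_ hβpow
        apply pow_le_pow_right₀ _ (by omega)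
        rw [le_div_iff₀ hβ0]
        linarith
      · positivity
      · positivity
    have hsum : ((∑ s ∈ range (q + 1), t.choose s * R.choose (d - s) : ℕ) : ℝ) ≤
        ((q : ℝ) + 1) * (Real.exp (q * l) * (Real.exp δ * Real.exp (6 * u ^ 4))) := by
      rw [Nat.cast_sum]
      refine (Finset.sum_le_card_nsmul _ _ _ hterm).trans ?_
      rw [card_range, nsmul_eq_mul]
      push_cast
      exact le_rfl
    refine hsum.trans ?_
    have hq3 : (q : ℝ) + 1 ≤ Real.exp q := Real.add_one_le_exp _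
    calc ((q : ℝ) + 1) * (Real.exp (q * l) * (Real.exp δ * Real.exp (6 * u ^ 4)))
        ≤ Real.exp q * (Real.exp (q * l) * (Real.exp δ * Real.exp (6 * u ^ 4))) := by
          apply mul_le_mul_of_nonneg_right hq3 (by positivity)
      _ = Real.exp (q + (q * l + (δ + 6 * u ^ 4))) := by
          rw [Real.exp_add, Real.exp_add, Real.exp_add]
      _ ≤ _ := by
          apply Real.exp_le_exp.2
          have hu2 : u ≤ u ^ 4 := by
            calc u = u ^ 1 := (pow_one u).symm
              _ ≤ u ^ 4 := pow_le_pow_right₀ hu1 (by norm_num)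
          have hu4 : u ^ 3 ≤ u ^ 4 := pow_le_pow_right₀ hu1 (by norm_num)
          have hl3 : l ^ 3 ≤ 512 * u ^ 3 := by
            calc l ^ 3 ≤ (8 * u) ^ 3 := pow_le_pow_left₀ hl0 hl 3
              _ = _ := by ring
          have hl4 : l ^ 4 ≤ 4096 * u ^ 4 := by
            calc l ^ 4 ≤ (8 * u) ^ 4 := pow_le_pow_left₀ hl0 hl 4
              _ = _ := by ring
          have hql : (q : ℝ) * l ≤ 2 * l ^ 4 + l := by
            calc (q : ℝ) * l ≤ (2 * l ^ 3 + 1) * l := mul_le_mul_of_nonneg_right hq2 hl0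
              _ = _ := by ring
          have hδu : (δ : ℝ) ≤ 2 * u ^ 4 := by
            have h1 : (δ : ℝ) ^ 2 ≤ (2 * u ^ 4) ^ 2 := by
              calc (δ : ℝ) ^ 2 ≤ 2 * t := hδ2'
                _ = 2 * u ^ 8 := by rw [htu]
                _ ≤ 4 * u ^ 8 := by
                  have h8 : 0 ≤ u ^ 8 := by positivity
                  linarith
                _ = _ := by ring
            exact (pow_le_pow_iff_left₀ hδpos.le (by positivity) (by norm_num)).1 h1
          have hu5 : 1 ≤ u ^ 4 := one_le_pow₀ hu1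
          linarith

theorem rowA (h1 : StA1) (h2 : StA2) : StA := by
  classical
  refine ⟨20000, by norm_num, ?_⟩
  intro V _ G hG T hT
  haveI : Fintype V := Fintype.ofFinite V
  rcases T.eq_empty_or_nonempty with hT0 | hTne
  · subst hT0
    have : nbhds G ∅ ⊆ {∅} := by
      intro I hI
      have := hI.1
      simp only [Set.mem_singleton_iff]
      exact Finset.subset_empty.1 this
    have h3 : (nbhds G ∅).ncard ≤ 1 := by
      calc (nbhds G ∅).ncard ≤ ({∅} : Set (Finset V)).ncard :=
            Set.ncard_le_ncard this (Set.finite_singleton _)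
        _ = 1 := Set.ncard_singleton _
    have h4 : ((nbhds G ∅).ncard : ℝ) ≤ 1 := by exact_mod_cast h3
    refine h4.trans ?_
    rw [← Real.exp_zero]
    apply Real.exp_le_exp.2
    positivity
  · set t : ℕ := T.card with htdef
    have ht : 1 ≤ t := Finset.card_pos.2 hTne
    obtain ⟨x0, hx0, hmin⟩ := Finset.exists_min_image T
      (fun x => (univ.filter (fun y => G.Adj x y)).card) hTne
    set δ : ℕ := (univ.filter (fun y => G.Adj x0 y)).card with hδdef
    have hncard : ∀ x : V, {y | G.Adj x y}.ncard = (univ.filter (fun y => G.Adj x y)).card := by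
      intro x
      rw [← Set.ncard_coe_finset]
      congr 1
      ext y
      simp
    have hδt : δ ≤ t := by
      apply Finset.card_le_card
      intro y hy
      have := (Finset.mem_filter.1 hy).2
      exact hT y x0 this.symm
    obtain ⟨u, hu1, hs, htu, hl⟩ := basic t ht
    have htpos : (0 : ℝ) < t := by exact_mod_cast ht
    have ht1 : (1 : ℝ) ≤ t := by exact_mod_cast ht
    have hl0 : 0 ≤ Real.log t := Real.log_nonneg ht1
    -- relation
    let H : V → V → Prop := fun x y => x ≠ y ∧ ∃ w, G.Adj w x ∧ G.Adj w y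
    have hHsymm : ∀ x y, H x y → H y x := by
      rintro x y ⟨hne, w, ha, hb⟩
      exact ⟨hne.symm, w, hb, ha⟩
    let Fd : ℕ → Finset (Finset V) := fun d =>
      (T.powersetCard d).filter (fun I => ∀ x ∈ I, ∀ y ∈ I, x ≠ y → ¬ H x y)
    have hsub : nbhds G T ⊆ ((range (δ + 2)).biUnion Fd : Finset (Finset V)) := by
      intro I hI
      obtain ⟨hIT, hIc, hInd⟩ := hI
      have h3 := hIc x0 hx0
      rw [hncard] at h3
      simp only [Finset.coe_biUnion, Set.mem_iUnion, Finset.mem_coe]
      refine ⟨I.card, mem_range.2 (by omega), ?_⟩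
      refine Finset.mem_filter.2 ⟨Finset.mem_powersetCard.2 ⟨hIT, rfl⟩, ?_⟩
      intro x hx y hy hne hH
      exact hInd x hx y hy hne hH.2
    have hcount : (nbhds G T).ncard ≤ ∑ d ∈ range (δ + 2), (Fd d).card := by
      calc (nbhds G T).ncard ≤ (((range (δ + 2)).biUnion Fd : Finset (Finset V)) :
            Set (Finset V)).ncard := Set.ncard_le_ncard hsub (Finset.finite_toSet _)
        _ = ((range (δ + 2)).biUnion Fd).card := Set.ncard_coe_finset _
        _ ≤ _ := Finset.card_biUnion_le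
    -- δ² ≤ 2t
    have hδ2 : δ ^ 2 ≤ 2 * t := by
      rcases Nat.lt_or_ge δ 2 with hlt | hge
      · have : δ ^ 2 ≤ 1 := by
          calc δ ^ 2 ≤ 1 ^ 2 := Nat.pow_le_pow_left (by omega) 2
            _ = 1 := by norm_num
        omega
      · obtain ⟨x, hxT, hx⟩ := h2 V G hG T hT δ (by omega) (fun x hx => hmin x hx) T
          (le_refl _) (Nat.mul_le_mul_right _ hge) hTne
        have h3 : ((T.filter (fun y => x ≠ y ∧ ∃ w, G.Adj w x ∧ G.Adj w y)).card : ℝ) ≤ t := by
          exact_mod_cast Finset.card_filter_le _ _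
        have h4 : (δ : ℝ) ^ 2 / (2 * t) * t ≤ t := hx.trans h3
        have h5 : (δ : ℝ) ^ 2 / (2 * t) * t = δ ^ 2 / 2 := by
          field_simp
        rw [h5] at h4
        have h6 : (δ : ℝ) ^ 2 ≤ 2 * t := by linarith
        exact_mod_cast h6
    have hδu : (δ : ℝ) ≤ 2 * u ^ 4 := by
      have hδ2' : (δ : ℝ) ^ 2 ≤ 2 * t := by exact_mod_cast hδ2
      have h1 : (δ : ℝ) ^ 2 ≤ (2 * u ^ 4) ^ 2 := by
        calc (δ : ℝ) ^ 2 ≤ 2 * t := hδ2'
          _ = 2 * u ^ 8 := by rw [htu]
          _ ≤ 4 * u ^ 8 := by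
              have h8 : 0 ≤ u ^ 8 := by positivity
              linarith
          _ = _ := by ring
      exact (pow_le_pow_iff_left₀ (by positivity) (by positivity) (by norm_num)).1 h1
    have hu4 : 1 ≤ u ^ 4 := one_le_pow₀ hu1
    have huu : u ≤ u ^ 4 := by
      calc u = u ^ 1 := (pow_one u).symm
        _ ≤ u ^ 4 := pow_le_pow_right₀ hu1 (by norm_num)
    -- each Fd is small
    have hFd : ∀ d ∈ range (δ + 2), ((Fd d).card : ℝ) ≤ Real.exp (10000 * u ^ 4) := by
      intro d hd
      have hd' : d ≤ δ + 1 := by have := mem_range.1 hd; omega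
      rcases le_or_gt ((δ : ℝ) * Real.log t) (u ^ 4) with hsmall | hbig
      · have h3 : (Fd d).card ≤ t.choose d := by
          calc (Fd d).card ≤ (T.powersetCard d).card := Finset.card_filter_le _ _
            _ = t.choose d := Finset.card_powersetCard _ _
        calc ((Fd d).card : ℝ) ≤ (t.choose d : ℝ) := by exact_mod_cast h3
          _ ≤ (t : ℝ) ^ d := by exact_mod_cast Nat.choose_le_pow t d
          _ ≤ (t : ℝ) ^ (δ + 1) := pow_le_pow_right₀ ht1 hd'
          _ = Real.exp ((δ + 1 : ℕ) * Real.log t) := by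
              rw [Real.exp_nat_mul, Real.exp_log htpos]
          _ ≤ _ := by
              apply Real.exp_le_exp.2
              push_cast
              nlinarith
      · have hδ1 : 1 ≤ δ := by
          rcases Nat.eq_zero_or_pos δ with h0 | h0
          · rw [h0] at hbig
            simp only [Nat.cast_zero, zero_mul] at hbig
            linarith
          · exact h0
        have hbig' : (t : ℝ) ^ (1 / 2 : ℝ) < δ * Real.log t := by rw [hs]; exact hbig
        obtain ⟨q, hq, hqd⟩ := sum_bound t δ hδ1 ht hδ2 hδt hbig'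
        have hβ1 : (δ : ℝ) ^ 2 / (2 * t) ≤ 1 := by
          rw [div_le_one (by positivity)]
          exact_mod_cast hδ2
        have hA1 := h1 V H hHsymm ((δ : ℝ) ^ 2 / (2 * t)) (2 * t / δ) (by positivity) hβ1 T
          (by
            intro B' hB' hc
            have h3 : 2 * t < δ * B'.card := by
              have := Nat.lt_mul_div_succ (2 * t) (show 0 < δ by omega)
              calc 2 * t < δ * (2 * t / δ + 1) := by simpa using this
                _ ≤ δ * B'.card := Nat.mul_le_mul_left _ hc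
            have hB'ne : B'.Nonempty := by
              rw [← Finset.card_pos]
              rcases Nat.eq_zero_or_pos B'.card with h0 | h0
              · rw [h0, Nat.mul_zero] at h3
                omega
              · exact h0
            obtain ⟨x, hx, hx2⟩ := h2 V G hG T hT δ hδ1 (fun x hx => hmin x hx) B' hB'
              h3.le hB'ne
            refine ⟨x, hx, ?_⟩
            convert hx2 using 3)
          q d hq
        have h4 := hqd d hd'
        rw [hs] at h4
        refine le_trans ?_ h4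
        exact_mod_cast hA1
    rw [hs]
    calc ((nbhds G T).ncard : ℝ) ≤ ((∑ d ∈ range (δ + 2), (Fd d).card : ℕ) : ℝ) := by
          exact_mod_cast hcount
      _ = ∑ d ∈ range (δ + 2), ((Fd d).card : ℝ) := by push_cast; rfl
      _ ≤ (range (δ + 2)).card • Real.exp (10000 * u ^ 4) :=
          Finset.sum_le_card_nsmul _ _ _ hFd
      _ = ((δ : ℝ) + 1 + 1) * Real.exp (10000 * u ^ 4) := by
          rw [card_range, nsmul_eq_mul]; push_cast; ring
      _ ≤ Real.exp ((δ : ℝ) + 1) * Real.exp (10000 * u ^ 4) := by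
          apply mul_le_mul_of_nonneg_right _ (by positivity)
          have := Real.add_one_le_exp ((δ : ℝ) + 1)
          linarith
      _ = Real.exp ((δ : ℝ) + 1 + 10000 * u ^ 4) := (Real.exp_add _ _).symm
      _ ≤ _ := by
          apply Real.exp_le_exp.2
          linarith

end Vale.Agent.P183.R2.H638.KW
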